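import Vale.Agent.P329.F.Defs

namespace Vale.Agent.P329

variable {A : Type}

/-- A1a. `avg M q F (i + M / q)` is the same sum shifted by one; `Finset.sum_range_succ`,
`Finset.sum_range_succ'`, and `F (i + q * (M / q)) = F (i + M) = F i`. -/
theorem avg_periodic (M q : ℕ) (hq : q ∣ M) (F : ℕ → ℤ) (hF : Function.Periodic F M) :
    Function.Periodic (avg M q F) (M / q) := by
  intro i
  unfold avg
  have h1 : ∑ k ∈ Finset.range q, F (i + M / q + k * (M / q)) =
      ∑ k ∈ Finset.range q, F (i + (k + 1) * (M / q)) := by
    refine Finset.sum_congr rfl fun k _ => ?_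
    congr 1
    ring
  have h2 := Finset.sum_range_succ (fun k => F (i + k * (M / q))) q
  have h3 := Finset.sum_range_succ' (fun k => F (i + k * (M / q))) q
  have h4 : F (i + q * (M / q)) = F (i + 0 * (M / q)) := by
    rw [Nat.mul_div_cancel' hq, zero_mul, add_zero]
    exact hF i
  rw [h1]
  linarith

/-- A1b. -/
theorem avg_periodic' (M q : ℕ) (F : ℕ → ℤ) (hF : Function.Periodic F M) :
    Function.Periodic (avg M q F) M := by
  intro i
  unfold avg
  refine Finset.sum_congr rfl fun k _ => ?_
  have : i + M + k * (M / q) = i + k * (M / q) + M := by ring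
  rw [this]
  exact hF _

end Vale.Agent.P329
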