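import Vale.Agent.P329.F.A1

namespace Vale.Agent.P329

variable {A : Type}

/-- A2. All `q` terms are equal by `avg_periodic` (`Function.Periodic.nat_mul`). -/
theorem avg_avg (M q : ℕ) (hq : q ∣ M) (F : ℕ → ℤ) (hF : Function.Periodic F M) (i : ℕ) :
    avg M q (avg M q F) i = (q : ℤ) * avg M q F i := by
  have hp := avg_periodic M q hq F hF
  have h : ∀ k : ℕ, avg M q F (i + k * (M / q)) = avg M q F i := fun k => hp.nat_mul k i
  have e : avg M q (avg M q F) i = ∑ k ∈ Finset.range q, avg M q F (i + k * (M / q)) := rfl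
  rw [e, Finset.sum_congr rfl (fun k _ => h k)]
  simp

end Vale.Agent.P329
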