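import Vale.Agent.P329.F.Defs

namespace Vale.Agent.P329

variable {A : Type}

/-- A3a. `Finset.sum_comm` and commutativity of addition in the argument. -/
theorem avg_comm (M q q' : ℕ) (F : ℕ → ℤ) (i : ℕ) :
    avg M q (avg M q' F) i = avg M q' (avg M q F) i := by
  unfold avg
  rw [Finset.sum_comm]
  refine Finset.sum_congr rfl fun a _ => Finset.sum_congr rfl fun b _ => ?_
  congr 1
  ring

/-- A3b. -/
theorem avg_lin (M q : ℕ) (c : ℤ) (F G : ℕ → ℤ) (i : ℕ) :
    avg M q (fun j => c * F j - G j) i = c * avg M q F i - avg M q G i := by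
  unfold avg
  rw [Finset.sum_sub_distrib, Finset.mul_sum]

end Vale.Agent.P329
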