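import Vale.Agent.P329.F.Defs

namespace Vale.Agent.P329

variable {A : Type}

variable (M : ℕ) [NeZero M] (D : A → Prop) (β : A → Bool) (ζ : ZMod M → Bool)

private theorem val_succ_mod (a : ZMod M) : (a + 1).val = (a.val + 1) % M := by
  rw [ZMod.val_add, ZMod.val_one_eq_one_mod, Nat.add_mod_mod]

private theorem val_succ_of_ne (a : ZMod M) (h : a + 1 ≠ 0) : (a + 1).val = a.val + 1 := by
  have h1 := val_succ_mod M a
  have h2 : a.val < M := ZMod.val_lt a
  have h3 : a.val + 1 ≠ M := by
    intro h4
    apply h
    rw [← ZMod.val_eq_zero, h1, h4, Nat.mod_self]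
  rw [h1, Nat.mod_eq_of_lt (by omega)]

private theorem val_succ_of_eq (a : ZMod M) (h : a + 1 = 0) : a.val + 1 = M := by
  have h1 := val_succ_mod M a
  have h2 : a.val < M := ZMod.val_lt a
  rw [h, ZMod.val_zero] at h1
  by_contra h3
  rw [Nat.mod_eq_of_lt (by omega)] at h1
  omega

open Classical in
/-- B1. The pattern automaton is a quotient of the block automaton.  `cnt_proj` with
`proj s = (s.1, decide (∀ i, i.val < s.1.val → s.2 i = ζ i))`.  When `s.1 + 1 ≠ 0`,
`(s.1 + 1).val = s.1.val + 1`; when `s.1 + 1 = 0`, `s.1.val = M - 1` so every `i ≠ s.1` has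
`i.val < s.1.val`. -/
theorem bgood_eq_pgood (s : ZMod M × (ZMod M → Bool)) (w : List A) :
    cnt (bstep M D β) (bgood M D β ζ) s w =
      cnt (pstep M D β ζ) (pgood M D β ζ)
        (s.1, decide (∀ i : ZMod M, i.val < s.1.val → s.2 i = ζ i)) w := by
  refine cnt_proj (δ' := bstep M D β) (mark' := bgood M D β ζ) (δ := pstep M D β ζ)
    (mark := pgood M D β ζ)
    (fun s => (s.1, decide (∀ i : ZMod M, i.val < s.1.val → s.2 i = ζ i))) ?_ ?_ s w
  · intro s x
    by_cases hD : D x
    · by_cases h0 : s.1 + 1 = 0
      · simp only [bstep, pstep, if_pos hD, if_pos h0]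
        rw [h0]
        simp
      · simp only [bstep, pstep, if_pos hD, if_neg h0]
        refine Prod.ext rfl ?_
        simp only
        rw [val_succ_of_ne M s.1 h0]
        rw [Bool.eq_iff_iff]
        simp only [decide_eq_true_eq, Bool.and_eq_true, beq_iff_eq]
        constructor
        · intro h
          refine ⟨fun i hi => ?_, ?_⟩
          · have h1 := h i (by omega)
            have hne : i ≠ s.1 := by
              intro he
              rw [he] at hi
              exact lt_irrefl _ hi
            rwa [Function.update_of_ne hne] at h1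
          · have h1 := h s.1 (by omega)
            rwa [Function.update_self] at h1
        · rintro ⟨h1, h2⟩ i hi
          by_cases hne : i = s.1
          · rw [hne, Function.update_self]
            exact h2
          · rw [Function.update_of_ne hne]
            apply h1
            have : i.val ≠ s.1.val := fun he => hne (ZMod.val_injective M he)
            omega
    · simp only [bstep, pstep, if_neg hD]
  · intro s x
    simp only [bgood, pgood]
    constructor
    · rintro ⟨⟨hD, h0⟩, h⟩
      refine ⟨⟨hD, h0⟩, ?_, ?_⟩
      · rw [decide_eq_true_eq]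
        intro i hi
        have hne : i ≠ s.1 := by
          intro he
          rw [he] at hi
          exact lt_irrefl _ hi
        rw [← h, Function.update_of_ne hne]
      · rw [← h, Function.update_self]
    · rintro ⟨⟨hD, h0⟩, h1, h2⟩
      refine ⟨⟨hD, h0⟩, ?_⟩
      rw [decide_eq_true_eq] at h1
      funext i
      by_cases hne : i = s.1
      · rw [hne, Function.update_self]
        exact h2
      · rw [Function.update_of_ne hne]
        apply h1
        have h3 : i.val ≠ s.1.val := fun he => hne (ZMod.val_injective M he)
        have h4 := val_succ_of_eq M s.1 h0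
        have h5 : i.val < M := ZMod.val_lt i
        omega

end Vale.Agent.P329
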