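import Vale.Agent.P329.F.Defs

namespace Vale.Agent.P329

variable {A : Type}

variable (M : ℕ) [NeZero M] (D : A → Prop) (β : A → Bool)

/-- B2. The state of the block automaton is measurable: `counterFree_of_rank` with marks `ball`
and rank `(0 - 1 - s.1).val` (compare `ustep_rank`), then `count_Meas` with `n = 1` and target
`(0, fun _ => false)`, then `Meas.comp Prod.snd`. -/
theorem bstate_Meas [Finite A] :
    Meas (fun w : List A => arun (bstep M D β) (0, fun _ => false) w) := by
  have hcf : CounterFree (bstep M D β) (ball M D) := by
    refine counterFree_of_rank (fun s => (0 - 1 - s.1).val) ?_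
    intro s x hm
    by_cases hD : D x
    · right
      have hne : ¬ (s.1 + 1 = 0) := fun h => hm ⟨hD, h⟩
      have e : bstep M D β s x = (s.1 + 1, Function.update s.2 s.1 (β x)) := by
        simp [bstep, hD, hne]
      rw [e]
      have hne2 : (0 : ZMod M) - 1 - s.1 ≠ 0 := by
        intro h0
        apply hne
        linear_combination -h0
      have := val_sub_one_lt hne2
      have e2 : (0 : ZMod M) - 1 - (s.1 + 1) = 0 - 1 - s.1 - 1 := by ring
      show ((0 : ZMod M) - 1 - (s.1 + 1)).val < _
      rw [e2]
      exact this
    · left
      simp [bstep, hD]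
  have h1 := count_Meas hcf (q0 := ((0 : ZMod M), fun _ => false))
    (fun s x hm => by simp [bstep, hm.1, hm.2]) 1 ((0 : ZMod M), fun _ => false)
  exact h1.comp Prod.snd

end Vale.Agent.P329
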