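import Vale.Agent.P329.F.Defs

namespace Vale.Agent.P329

variable {A : Type}

variable (M : ℕ) [NeZero M] (D : A → Prop) (β : A → Bool)

private theorem wt_update (F : ℕ → ℤ) (s2 : ZMod M → Bool) (i0 : ZMod M) (b : Bool)
    (hs : s2 i0 = false) :
    wt M F (Function.update s2 i0 b) = wt M F s2 + (if b = true then F i0.val else 0) := by
  have h : ∀ i, (if Function.update s2 i0 b i = true then F i.val else 0)
      = (if s2 i = true then F i.val else 0)
        + (if i = i0 then (if b = true then F i0.val else 0) else 0) := by
    intro i
    by_cases hi : i = i0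
    · subst hi; simp [hs]
    · simp [hi]
  unfold wt
  rw [Finset.sum_congr rfl (fun i _ => h i), Finset.sum_add_distrib, Finset.sum_ite_eq']
  simp

private theorem wt_false (F : ℕ → ℤ) : wt M F (fun _ => false) = 0 := by
  simp [wt]

/-- B3. Block decomposition of `wsum`.  Induction on `w` generalizing `z s`.
Letter outside `D`: `β x = false` by `hβ`, nothing changes.  Letter of `D` with `s.1 + 1 ≠ 0`:
`wt (update s.2 s.1 (β x)) = wt s.2 + (if β x then F s.1.val else 0)` because `s.2 s.1 = false`,
and `F z = F s.1.val` by periodicity (`hF.map_mod_nat`, `ZMod.val_natCast`).  Letter of `D` with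
`s.1 + 1 = 0`: exactly the pattern `update s.2 s.1 (β x)` gets one more completion
(`Finset.sum_ite_eq`), the new content is empty and has weight `0`. -/
theorem wsum_identity (hβ : ∀ x, β x = true → D x) (F : ℕ → ℤ) (hF : Function.Periodic F M)
    (w : List A) (z : ℕ) (s : ZMod M × (ZMod M → Bool)) (hz : (z : ZMod M) = s.1)
    (hinv : ∀ i : ZMod M, s.1.val ≤ i.val → s.2 i = false) :
    wsum D β F z w + wt M F s.2 =
      ∑ ζ : ZMod M → Bool, wt M F ζ * (cnt (bstep M D β) (bgood M D β ζ) s w : ℤ) +
        wt M F (arun (bstep M D β) s w).2 := by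
  induction w generalizing z s with
  | nil => simp [wsum]
  | cons x w ih =>
    have hFz : F z = F s.1.val := by
      rw [← hz, ZMod.val_natCast, hF.map_mod_nat]
    have hupd := wt_update M F s.2 s.1 (β x) (hinv s.1 le_rfl)
    by_cases hD : D x
    · have hz' : ((z + 1 : ℕ) : ZMod M) = s.1 + 1 := by push_cast; rw [hz]
      by_cases h0 : s.1 + 1 = 0
      · have hstep : bstep M D β s x = (0, fun _ => false) := by
          simp [bstep, hD, h0]
        have hih := ih (z + 1) (0, fun _ => false) (by rw [hz', h0]) (fun i _ => rfl)
        have hcnt : ∀ ζ : ZMod M → Bool, (cnt (bstep M D β) (bgood M D β ζ) s (x :: w) : ℤ)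
            = (if Function.update s.2 s.1 (β x) = ζ then 1 else 0)
              + (cnt (bstep M D β) (bgood M D β ζ) (0, fun _ => false) w : ℤ) := by
          intro ζ
          rw [cnt, hstep]
          by_cases hζ : Function.update s.2 s.1 (β x) = ζ
          · simp [bgood, hD, h0, hζ]
          · simp [bgood, hD, h0, hζ]
        rw [arun_cons, hstep, Finset.sum_congr rfl (fun ζ _ => by rw [hcnt ζ, mul_add])]
        rw [Finset.sum_add_distrib]
        simp only [mul_ite, mul_one, mul_zero, Finset.sum_ite_eq, Finset.mem_univ, if_true]
        rw [wt_false] at hih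
        rw [wsum, if_pos hD, hupd, hFz]
        linarith
      · have hstep : bstep M D β s x = (s.1 + 1, Function.update s.2 s.1 (β x)) := by
          simp [bstep, hD, h0]
        have hlt : s.1.val + 1 < M := by
          by_contra hcon
          apply h0
          have h1 := ZMod.val_lt s.1
          have h2 : s.1.val + 1 = M := by omega
          have h3 : ((s.1.val + 1 : ℕ) : ZMod M) = 0 := by rw [h2]; simp
          push_cast at h3
          rwa [ZMod.natCast_zmod_val] at h3
        have hval : (s.1 + 1).val = s.1.val + 1 := by
          have e : s.1 + 1 = ((s.1.val + 1 : ℕ) : ZMod M) := by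
            push_cast; rw [ZMod.natCast_zmod_val]
          rw [e, ZMod.val_natCast, Nat.mod_eq_of_lt hlt]
        have hih := ih (z + 1) (s.1 + 1, Function.update s.2 s.1 (β x)) hz' (by
          intro i hi
          simp only at hi ⊢
          rw [hval] at hi
          have hne : i ≠ s.1 := by rintro rfl; omega
          rw [Function.update_of_ne hne]
          exact hinv i (by omega))
        have hcnt : ∀ ζ : ZMod M → Bool, cnt (bstep M D β) (bgood M D β ζ) s (x :: w)
            = cnt (bstep M D β) (bgood M D β ζ) (s.1 + 1, Function.update s.2 s.1 (β x)) w := by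
          intro ζ
          rw [cnt, hstep]
          simp [bgood, h0]
        rw [arun_cons, hstep, Finset.sum_congr rfl (fun ζ _ => by rw [hcnt ζ])]
        simp only at hih
        rw [hupd] at hih
        rw [wsum, if_pos hD, hFz]
        linarith
    · have hb : β x = false := by
        by_contra hcon
        exact hD (hβ x (by simpa using hcon))
      have hstep : bstep M D β s x = s := by simp [bstep, hD]
      have hcnt : ∀ ζ : ZMod M → Bool, cnt (bstep M D β) (bgood M D β ζ) s (x :: w)
          = cnt (bstep M D β) (bgood M D β ζ) s w := by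
        intro ζ
        rw [cnt, hstep]
        simp [bgood, hD]
      rw [arun_cons, hstep, Finset.sum_congr rfl (fun ζ _ => by rw [hcnt ζ])]
      rw [wsum, if_neg hD, hb]
      simpa using ih z s hz hinv

end Vale.Agent.P329
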