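import Vale.Agent.P329.F.Defs

namespace Vale.Agent.P329

variable {A : Type}

/-- B4. A balanced weight vanishes on the patterns that are not primitive.  Get a prime `q ∣ M`
with `ζ` invariant under the shift by `e = M / q`.  Then
`q * wt = ∑ k < q, ∑ i, [ζ (i + k e)] F (i + k e).val` (reindex each inner sum by
`Equiv.addRight`), `ζ (i + k e) = ζ i`, `F (i + k e).val = F (i.val + k * e)` by periodicity,
swap the sums and use `hbal q _ _ i.val`. -/
theorem wt_eq_zero (M : ℕ) [NeZero M] (F : ℕ → ℤ) (hF : Function.Periodic F M)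
    (hbal : ∀ q : ℕ, q.Prime → q ∣ M → ∀ i, avg M q F i = 0) (ζ : ZMod M → Bool)
    (h : ¬ Prim M ζ) : wt M F ζ = 0 := by
  have h' : ∃ q : ℕ, q.Prime ∧ q ∣ M ∧ ∀ i, ζ (i + ((M / q : ℕ) : ZMod M)) = ζ i := by
    by_contra hcon
    apply h
    intro q hq hqM hi
    exact hcon ⟨q, hq, hqM, hi⟩
  obtain ⟨q, hq, hqM, hinv⟩ := h'
  set e : ℕ := M / q with he
  have hz : ∀ (k : ℕ) (i : ZMod M), ζ (i + ((k * e : ℕ) : ZMod M)) = ζ i := by
    intro k
    induction k with
    | zero => intro i; simp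
    | succ k ih =>
      intro i
      have : i + (((k + 1) * e : ℕ) : ZMod M) = (i + ((k * e : ℕ) : ZMod M)) + ((e : ℕ) : ZMod M) := by
        push_cast
        ring
      rw [this, hinv, ih]
  have hFv : ∀ (k : ℕ) (i : ZMod M), F (i + ((k * e : ℕ) : ZMod M)).val = F (i.val + k * e) := by
    intro k i
    rw [ZMod.val_add, ZMod.val_natCast, hF.map_mod_nat, ← hF.map_mod_nat (i.val + k * e % M),
      ← hF.map_mod_nat (i.val + k * e), Nat.add_mod_mod]
  have hshift : ∀ k : ℕ, wt M F ζ = ∑ i : ZMod M, if ζ i = true then F (i.val + k * e) else 0 := by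
    intro k
    unfold wt
    rw [← Equiv.sum_comp (Equiv.addRight ((k * e : ℕ) : ZMod M))]
    refine Finset.sum_congr rfl fun i _ => ?_
    simp only [Equiv.coe_addRight, hz, hFv]
  have hsum : (q : ℤ) * wt M F ζ = 0 := by
    have h1 : (q : ℤ) * wt M F ζ = ∑ _k ∈ Finset.range q, wt M F ζ := by
      simp
    rw [h1]
    have h2 : ∑ _k ∈ Finset.range q, wt M F ζ
        = ∑ k ∈ Finset.range q, ∑ i : ZMod M, if ζ i = true then F (i.val + k * e) else 0 :=
      Finset.sum_congr rfl fun k _ => hshift k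
    rw [h2, Finset.sum_comm]
    refine Finset.sum_eq_zero fun i _ => ?_
    by_cases hi : ζ i = true
    · simp only [hi, if_true]
      exact hbal q hq hqM i.val
    · simp only [hi, if_false, Finset.sum_const_zero, Bool.false_eq_true]
  have hq0 : (q : ℤ) ≠ 0 := by exact_mod_cast hq.ne_zero
  exact (mul_eq_zero.mp hsum).resolve_left hq0

end Vale.Agent.P329
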