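import Vale.Agent.P329.F.P9
import Vale.Agent.P329.F.B1
import Vale.Agent.P329.F.B2
import Vale.Agent.P329.F.B3
import Vale.Agent.P329.F.B4

namespace Vale.Agent.P329

variable {A : Type}

variable (M : ℕ) [NeZero M] (D : A → Prop) (β : A → Bool)

/-- B5. Balanced weights are measurable.  By `wsum_identity` at `z = 0`, `s = (0, fun _ => false)`
(`wt` of the empty content is `0`), `wt_eq_zero`, `bgood_eq_pgood` (the decide is `true` at
`s.1 = 0`), the value of `wsum` modulo `n` is determined by the family
`fun ζ => if Prim M ζ then (cnt .. pgood .. : ZMod n) else 0` (`Meas.pi`, `pgood_Meas`, a constant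
function is measurable by `Meas.comp` or `of_determined`) and the state (`bstate_Meas`). -/
theorem bal_Meas [Finite A] (hβ : ∀ x, β x = true → D x) (F : ℕ → ℤ)
    (hF : Function.Periodic F M)
    (hbal : ∀ q : ℕ, q.Prime → q ∣ M → ∀ i, avg M q F i = 0) (n : ℕ) [NeZero n] :
    Meas (fun w : List A => ((wsum D β F 0 w : ℤ) : ZMod n)) := by
  classical
  have hst := bstate_Meas (A := A) M D β
  have hfam : ∀ ζ : ZMod M → Bool, Meas (fun w : List A =>
      (if Prim M ζ then ((cnt (pstep M D β ζ) (pgood M D β ζ) (0, true) w : ℕ) : ZMod n)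
        else 0)) := by
    intro ζ
    by_cases hP : Prim M ζ
    · simp only [hP, if_true]
      exact pgood_Meas M D β ζ hP n
    · simp only [hP, if_false]
      exact hst.of_determined fun _ _ _ => rfl
  have hpi := Meas.pi hfam
  have hid : ∀ w : List A, ((wsum D β F 0 w : ℤ) : ZMod n) =
      ∑ ζ : ZMod M → Bool, ((wt M F ζ : ℤ) : ZMod n) *
        (if Prim M ζ then ((cnt (pstep M D β ζ) (pgood M D β ζ) (0, true) w : ℕ) : ZMod n)
          else 0) +
        ((wt M F (arun (bstep M D β) (0, fun _ => false) w).2 : ℤ) : ZMod n) := by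
    intro w
    have h := wsum_identity M D β hβ F hF w 0 (0, fun _ => false) (by simp) (fun _ _ => rfl)
    have h0 : wt M F (fun _ => false) = 0 := by simp [wt]
    simp only [h0, add_zero] at h
    rw [h]
    push_cast
    congr 1
    refine Finset.sum_congr rfl fun ζ _ => ?_
    by_cases hP : Prim M ζ
    · simp only [hP, if_true]
      rw [bgood_eq_pgood]
      simp
    · simp only [hP, if_false]
      rw [wt_eq_zero M F hF hbal ζ hP]
      simp
  refine (hpi.prodMk hst).of_determined fun w w' h => ?_
  rw [Prod.mk.injEq] at h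
  obtain ⟨h1, h2⟩ := h
  rw [hid, hid, h2]
  congr 1
  refine Finset.sum_congr rfl fun ζ _ => ?_
  rw [congrFun h1 ζ]

end Vale.Agent.P329
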