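import Vale.Agent.P329.F.Defs

namespace Vale.Agent.P329

variable {A : Type}

/-- W2. Division: if `q * Y` is measurable modulo `q * n` then `Y` is measurable modulo `n`.
Use `Meas.of_determined`; `q * Y w = q * Y w'` in `ZMod (q * n)` gives `q * n ∣ q * (Y w - Y w')`,
hence `n ∣ Y w - Y w'` (compare the end of `occ_Meas` in `Occ2`). -/
theorem Meas.int_div {Y : List A → ℤ} (q n : ℕ) (hq : 0 < q) [NeZero n]
    (h : Meas (fun w => (((q : ℤ) * Y w : ℤ) : ZMod (q * n)))) :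
    Meas (fun w => ((Y w : ℤ) : ZMod n)) := by
  have : NeZero (q * n) := ⟨Nat.mul_ne_zero hq.ne' (NeZero.ne n)⟩
  refine h.of_determined fun w w' e => ?_
  rw [ZMod.intCast_eq_intCast_iff_dvd_sub] at e ⊢
  have hq' : (q : ℤ) ≠ 0 := by exact_mod_cast hq.ne'
  have e' : (q : ℤ) * (n : ℤ) ∣ (q : ℤ) * (Y w' - Y w) := by
    have : (q : ℤ) * (Y w' - Y w) = (q : ℤ) * Y w' - (q : ℤ) * Y w := by ring
    rw [this]
    exact_mod_cast e
  exact (mul_dvd_mul_iff_left hq').1 e'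

end Vale.Agent.P329
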