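import Vale.Agent.P329.F.W1
import Vale.Agent.P329.F.W2
import Vale.Agent.P329.F.B5
import Vale.Agent.P329.F.A2
import Vale.Agent.P329.F.A3

namespace Vale.Agent.P329

variable {A : Type}

variable (D : A → Prop) (β : A → Bool)

/-- A5a. Removing the balance conditions one prime at a time.  Induction on `Q`.  `Q = []` is
`bal_Meas`.  For `q :: Q`: if `q` is not a prime divisor of `M`, the hypothesis for `q :: Q`
implies the one for `Q`.  Otherwise put `F' = fun i => q * F i - avg M q F i`.  It is periodic, and
`avg M q' F' = 0` for every prime divisor `q' ∉ Q` (`avg_lin`; for `q' = q` use `avg_avg`, for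
`q' ≠ q` use `avg_comm` and the hypothesis, which makes `avg M q' F` the zero function).  So
`wsum F'` is measurable modulo `q * n` by the induction hypothesis on `Q`, `wsum (avg M q F)` is
measurable modulo `q * n` by `IH (M / q)` and `avg_periodic`; by `wsum_lin`
`q * wsum F = wsum F' + wsum (avg M q F)`; conclude with `Meas.int_div`. -/
theorem wsum_Meas_aux [Finite A] (hβ : ∀ x, β x = true → D x) (M : ℕ) (hM : 0 < M)
    (IH : ∀ M' : ℕ, M' < M → 0 < M' → ∀ F : ℕ → ℤ, Function.Periodic F M' → ∀ n : ℕ, 0 < n →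
      Meas (fun w : List A => ((wsum D β F 0 w : ℤ) : ZMod n)))
    (Q : List ℕ) : ∀ F : ℕ → ℤ, Function.Periodic F M →
      (∀ q : ℕ, q.Prime → q ∣ M → q ∉ Q → ∀ i, avg M q F i = 0) → ∀ n : ℕ, 0 < n →
      Meas (fun w : List A => ((wsum D β F 0 w : ℤ) : ZMod n)) := by
  induction Q with
  | nil =>
    intro F hF hbal n hn
    have : NeZero M := ⟨hM.ne'⟩
    have : NeZero n := ⟨hn.ne'⟩
    exact bal_Meas M D β hβ F hF (fun q hq hqM i => hbal q hq hqM (by simp) i) n
  | cons q Q ih =>
    intro F hF hbal n hn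
    by_cases hq : q.Prime ∧ q ∣ M
    · obtain ⟨hqp, hqM⟩ := hq
      have hq0 : 0 < q := hqp.pos
      have : NeZero n := ⟨hn.ne'⟩
      have : NeZero (q * n) := ⟨(Nat.mul_pos hq0 hn).ne'⟩
      have hF'per : Function.Periodic (fun i => (q : ℤ) * F i - avg M q F i) M := by
        intro i
        show (q : ℤ) * F (i + M) - avg M q F (i + M) = (q : ℤ) * F i - avg M q F i
        rw [hF i, avg_periodic' M q F hF i]
      have hF'bal : ∀ q' : ℕ, q'.Prime → q' ∣ M → q' ∉ Q → ∀ i,
          avg M q' (fun i => (q : ℤ) * F i - avg M q F i) i = 0 := by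
        intro q' hq'p hq'M hq'Q i
        rw [avg_lin]
        by_cases e : q' = q
        · subst e
          rw [avg_avg M q' hqM F hF i]
          ring
        · have hz : ∀ j, avg M q' F j = 0 := hbal q' hq'p hq'M (by simp [e, hq'Q])
          rw [avg_comm, hz i]
          have h0 : avg M q' F = fun _ => 0 := funext hz
          rw [h0]
          simp [avg]
      have m1 : Meas (fun w : List A =>
          ((wsum D β (fun i => (q : ℤ) * F i - avg M q F i) 0 w : ℤ) : ZMod (q * n))) :=
        ih _ hF'per hF'bal (q * n) (Nat.mul_pos hq0 hn)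
      have hlt : M / q < M := Nat.div_lt_self hM hqp.one_lt
      have hpos : 0 < M / q := Nat.div_pos (Nat.le_of_dvd hM hqM) hq0
      have m2 : Meas (fun w : List A => ((wsum D β (avg M q F) 0 w : ℤ) : ZMod (q * n))) :=
        IH (M / q) hlt hpos (avg M q F) (avg_periodic M q hqM F hF) (q * n)
          (Nat.mul_pos hq0 hn)
      apply Meas.int_div q n hq0
      have m3 := (m1.prodMk m2).comp (fun p => p.1 + p.2)
      have e : (fun w : List A => (((q : ℤ) * wsum D β F 0 w : ℤ) : ZMod (q * n))) =
          fun w : List A =>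
            ((wsum D β (fun i => (q : ℤ) * F i - avg M q F i) 0 w : ℤ) : ZMod (q * n)) +
              ((wsum D β (avg M q F) 0 w : ℤ) : ZMod (q * n)) := by
        funext w
        rw [wsum_lin D β (q : ℤ) F (avg M q F) 0 w]
        push_cast
        ring
      rw [e]
      exact m3
    · refine ih F hF (fun q' hq'p hq'M hq'Q i => hbal q' hq'p hq'M ?_ i) n hn
      intro hmem
      rcases List.mem_cons.mp hmem with e | e
      · subst e
        exact hq ⟨hq'p, hq'M⟩
      · exact hq'Q e

/-- A5b. Strong induction on `M`, `wsum_Meas_aux` with `Q = M.primeFactorsList`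
(`Nat.mem_primeFactorsList`). -/
theorem wsum_Meas [Finite A] (hβ : ∀ x, β x = true → D x) (M : ℕ) (hM : 0 < M) (F : ℕ → ℤ)
    (hF : Function.Periodic F M) (n : ℕ) (hn : 0 < n) :
    Meas (fun w : List A => ((wsum D β F 0 w : ℤ) : ZMod n)) := by
  induction M using Nat.strong_induction_on generalizing F n with
  | _ M IHM =>
    exact wsum_Meas_aux D β hβ M hM
      (fun M' hlt hpos F' hF' n' hn' => IHM M' hlt hpos F' hF' n' hn') M.primeFactorsList F hF
      (fun q hq hqM hnot i => absurd ((Nat.mem_primeFactorsList hM.ne').mpr ⟨hq, hqM⟩) hnot) n hn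

end Vale.Agent.P329
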