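import Vale.Agent.P329.F.Defs

namespace Vale.Agent.P329

variable {A : Type}

theorem rep_zero (u : List A) : rep 0 u = [] := rfl

theorem rep_succ (k : ℕ) (u : List A) : rep (k + 1) u = u ++ rep k u := by
  simp [rep, List.replicate_succ]

/-- C0a. -/
theorem rep_succ' (k : ℕ) (u : List A) : rep (k + 1) u = rep k u ++ u := by
  induction k with
  | zero => simp [rep]
  | succ k ih =>
    have h2 : u ++ rep k u = rep k u ++ u := by rw [← rep_succ, ih]
    rw [rep_succ (k + 1), ih, ← List.append_assoc, h2]

/-- C0b. Criterion for counter-freeness in terms of powers of a word.  From `iter_some` (file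
`Level`) get `q = g^[j] q` and zero counts for `i' < j`, extend to all `i` by periodicity as in
`level_counterFree` (`hall`), then show by induction on `k` that
`arun δ q (rep k u) = g^[k] q` and `cnt δ mark q (rep k u) = 0` (`rep_succ'`, `arun_append`,
`cnt_append`).  Conclude with `(pact_run _ _ q q u).2`. -/
theorem counterFree_of_rep {Q : Type} {δ : Q → A → Q} {mark : Q → A → Prop}
    (h : ∀ (u : List A) (q : Q) (j : ℕ), 0 < j → arun δ q (rep j u) = q →
      (∀ k, cnt δ mark q (rep k u) = 0) → arun δ q u = q) : CounterFree δ mark := by
  classical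
  intro u x j hj hx
  cases x with
  | none => exact pact_none _ _ _
  | some q =>
    obtain ⟨hper, hc0⟩ := iter_some _ _ u q j q hx
    set g : Q → Q := fun s => arun δ s u with hg
    have hperiodic : Function.IsPeriodicPt g j q := hper.symm
    have hall : ∀ i, cnt δ mark (g^[i] q) u = 0 := by
      intro i
      rw [← hperiodic.iterate_mod_apply i]
      exact hc0 _ (Nat.mod_lt _ hj)
    have hrun : ∀ k, arun δ q (rep k u) = g^[k] q ∧ cnt δ mark q (rep k u) = 0 := by
      intro k
      induction k with
      | zero => simp [rep_zero, arun]
      | succ k ih =>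
        constructor
        · rw [rep_succ', arun_append, ih.1, Function.iterate_succ_apply']
        · rw [rep_succ', cnt_append, ih.1, ih.2, hall k]
    refine (pact_run _ _ q q u).2 ⟨hall 0, ?_⟩
    exact h u q j hj ((hrun j).1.trans hper.symm) (fun k => (hrun k).2)

end Vale.Agent.P329
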