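import Vale.Agent.P329.F.C0

namespace Vale.Agent.P329

variable {A : Type}

theorem dcnt_nil (D : A → Prop) : dcnt D ([] : List A) = 0 := rfl

open Classical in
theorem dcnt_cons (D : A → Prop) (x : A) (w : List A) :
    dcnt D (x :: w) = (if D x then 1 else 0) + dcnt D w := by
  unfold dcnt
  rw [List.countP_cons]
  by_cases h : D x <;> simp [h, add_comm]

theorem dcnt_append (D : A → Prop) (u v : List A) : dcnt D (u ++ v) = dcnt D u + dcnt D v := by
  unfold dcnt
  rw [List.countP_append]

theorem dcnt_rep (D : A → Prop) (k : ℕ) (u : List A) : dcnt D (rep k u) = k * dcnt D u := by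
  induction k with
  | zero => simp [rep, dcnt]
  | succ k ih =>
    have : rep (k + 1) u = u ++ rep k u := by
      simp [rep, List.replicate_succ]
    rw [this, dcnt_append, ih]
    ring

/-- Dc. The letter of `D` number `c` of a word.  Induction on `W` generalizing `c`. -/
theorem dcnt_split (D : A → Prop) (W : List A) (c : ℕ) (h : c < dcnt D W) :
    ∃ w₁ x w₂, W = w₁ ++ x :: w₂ ∧ D x ∧ dcnt D w₁ = c := by
  classical
  induction W generalizing c with
  | nil => simp [dcnt] at h
  | cons y W ih =>
    rw [dcnt_cons] at h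
    by_cases hy : D y
    · rw [if_pos hy] at h
      rcases Nat.eq_zero_or_pos c with hc | hc
      · exact ⟨[], y, W, rfl, hy, by rw [hc]; rfl⟩
      · obtain ⟨w₁, x, w₂, h1, h2, h3⟩ := ih (c - 1) (by omega)
        refine ⟨y :: w₁, x, w₂, by rw [h1]; rfl, h2, ?_⟩
        rw [dcnt_cons, if_pos hy, h3]
        omega
    · rw [if_neg hy] at h
      obtain ⟨w₁, x, w₂, h1, h2, h3⟩ := ih c (by omega)
      refine ⟨y :: w₁, x, w₂, by rw [h1]; rfl, h2, ?_⟩
      rw [dcnt_cons, if_neg hy, h3]
      omega

end Vale.Agent.P329
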