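import Vale.Agent.P329.Elem
import Vale.Agent.P329.PSum

namespace Vale.Agent.P329

section FDefs

variable {A : Type}

open Classical in
/-- Weighted sum, over the occurrences in `w` of the letters `x` with `β x = true`, of
`F (z + number of letters of D before that occurrence)`. -/
noncomputable def wsum (D : A → Prop) (β : A → Bool) (F : ℕ → ℤ) : ℕ → List A → ℤ
  | _, [] => 0
  | z, x :: w => (if β x = true then F z else 0) + wsum D β F (if D x then z + 1 else z) w

open Classical in
/-- Number of letters of `D` in `w`. -/
noncomputable def dcnt (D : A → Prop) (w : List A) : ℕ := w.countP (fun x => decide (D x))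

/-- The `k`-th power of a word. -/
def rep (k : ℕ) (u : List A) : List A := (List.replicate k u).flatten

open Classical in
/-- The pattern automaton: position modulo `M` among the letters of `D`, and one bit telling
whether the current block agrees so far with the pattern `ζ`. -/
noncomputable def pstep (M : ℕ) (D : A → Prop) (β : A → Bool) (ζ : ZMod M → Bool) :
    ZMod M × Bool → A → ZMod M × Bool :=
  fun s x => if D x then
      (s.1 + 1, if s.1 + 1 = 0 then true else (s.2 && (β x == ζ s.1)))
    else s

/-- All block completions. -/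
def pall (M : ℕ) (D : A → Prop) : ZMod M × Bool → A → Prop :=
  fun s x => D x ∧ s.1 + 1 = 0

/-- Completions of a block equal to the pattern. -/
def pgood (M : ℕ) (D : A → Prop) (β : A → Bool) (ζ : ZMod M → Bool) :
    ZMod M × Bool → A → Prop :=
  fun s x => (D x ∧ s.1 + 1 = 0) ∧ (s.2 = true ∧ β x = ζ s.1)

/-- Completions of a block different from the pattern. -/
def pmark (M : ℕ) (D : A → Prop) (β : A → Bool) (ζ : ZMod M → Bool) :
    ZMod M × Bool → A → Prop :=
  fun s x => (D x ∧ s.1 + 1 = 0) ∧ ¬ (s.2 = true ∧ β x = ζ s.1)

open Classical in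
/-- The block automaton: position modulo `M` and the content of the current block. -/
noncomputable def bstep (M : ℕ) (D : A → Prop) (β : A → Bool) :
    ZMod M × (ZMod M → Bool) → A → ZMod M × (ZMod M → Bool) :=
  fun s x => if D x then
      (if s.1 + 1 = 0 then (0, fun _ => false)
        else (s.1 + 1, Function.update s.2 s.1 (β x)))
    else s

/-- All block completions of the block automaton. -/
def ball (M : ℕ) (D : A → Prop) : ZMod M × (ZMod M → Bool) → A → Prop :=
  fun s x => D x ∧ s.1 + 1 = 0

open Classical in
/-- Completions of a block with content `ζ`. -/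
def bgood (M : ℕ) (D : A → Prop) (β : A → Bool) (ζ : ZMod M → Bool) :
    ZMod M × (ZMod M → Bool) → A → Prop :=
  fun s x => (D x ∧ s.1 + 1 = 0) ∧ Function.update s.2 s.1 (β x) = ζ

/-- A pattern is primitive if it is not invariant under the shift by `M / q`, `q` a prime
divisor of `M`. -/
def Prim (M : ℕ) (ζ : ZMod M → Bool) : Prop :=
  ∀ q : ℕ, q.Prime → q ∣ M → ¬ ∀ i, ζ (i + ((M / q : ℕ) : ZMod M)) = ζ i

/-- Sum of `F` over the `q` shifts by multiples of `M / q`. -/
def avg (M q : ℕ) (F : ℕ → ℤ) : ℕ → ℤ := fun i => ∑ k ∈ Finset.range q, F (i + k * (M / q))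

/-- Weight of a pattern. -/
def wt (M : ℕ) [NeZero M] (F : ℕ → ℤ) (ζ : ZMod M → Bool) : ℤ :=
  ∑ i : ZMod M, if ζ i = true then F i.val else 0

end FDefs

end Vale.Agent.P329
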