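import Vale.Agent.P329.F.W3
import Vale.Agent.P329.F.A5

namespace Vale.Agent.P329

variable {A : Type}

/-- O1. Level counts of a letter of `D`.  `uocc_eq_wsum` at `z = 0`, `wsum_Meas` with the
indicator weight (periodic since `((i + M : ℕ) : ZMod M) = i`), and `Int.cast_natCast`. -/
theorem uocc_flag_Meas [Finite A] (M : ℕ) [NeZero M] (D : A → Prop) (b : A) (hb : D b)
    (l : ZMod M) (n : ℕ) [NeZero n] :
    Meas (fun w : List A => ((uocc M D b l 0 w : ℕ) : ZMod n)) := by
  classical
  have h := wsum_Meas D (fun x => decide (x = b)) (fun x hx => by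
      have : x = b := by simpa using hx
      rw [this]; exact hb) M (Nat.pos_of_ne_zero (NeZero.ne M))
    (fun i => if (i : ZMod M) = l then 1 else 0) (by
      intro i
      simp) n (Nat.pos_of_ne_zero (NeZero.ne n))
  have e : (fun w : List A => ((uocc M D b l 0 w : ℕ) : ZMod n)) =
      (fun w : List A => ((wsum D (fun x => decide (x = b))
        (fun i => if (i : ZMod M) = l then 1 else 0) 0 w : ℤ) : ZMod n)) := by
    funext w
    have := uocc_eq_wsum M D b l 0 w
    rw [Nat.cast_zero] at this
    rw [← this, Int.cast_natCast]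
  rw [e]
  exact h

end Vale.Agent.P329
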