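import Vale.Agent.P329.F.O1

namespace Vale.Agent.P329

variable {A : Type}

variable {T : Type} [Group T]

/-- O2a. -/
theorem pow_val_succ [Finite T] (t : T) (i : ZMod (orderOf t)) :
    t ^ (i + 1).val = t ^ i.val * t := by
  have : NeZero (orderOf t) := ⟨(orderOf_pos t).ne'⟩
  rw [← pow_succ, pow_eq_pow_iff_modEq]
  have h : (((i + 1).val : ℕ) : ZMod (orderOf t)) = ((i.val + 1 : ℕ) : ZMod (orderOf t)) := by
    simp
  exact (ZMod.natCast_eq_natCast_iff _ _ _).1 h

theorem occ_onestep_Meas [Finite A] [Finite T] (π : A → T) (t : T)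
    (hπ : ∀ a, π a = 1 ∨ π a = t) (c : A) (l : T) (n : ℕ) [NeZero n] :
    Meas (fun w : List A => ((occ π c l 1 w : ℕ) : ZMod n)) := by
  classical
  have : NeZero (orderOf t) := ⟨(orderOf_pos t).ne'⟩
  have key : ∀ w : List A, occ π c l 1 w =
      cnt (ustep (orderOf t) (fun a => π a ≠ 1)) (fun s a => a = c ∧ t ^ s.val = l) 0 w := by
    intro w
    have := cnt_proj (δ' := ustep (orderOf t) (fun a => π a ≠ 1))
      (mark' := fun s a => a = c ∧ t ^ s.val = l) (δ := lev π)
      (mark := fun t a => a = c ∧ t = l) (fun i : ZMod (orderOf t) => t ^ i.val)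
      (fun s a => by
        by_cases h : π a = 1
        · simp [ustep, lev, h]
        · have h' : π a = t := (hπ a).resolve_left h
          simp only [ustep, lev, ne_eq, h, not_false_eq_true, if_true]
          rw [pow_val_succ, h'])
      (fun s a => Iff.rfl) 0 w
    rw [this]
    simp [occ]
  by_cases hl : ∃ i₀ : ZMod (orderOf t), t ^ i₀.val = l
  · obtain ⟨i₀, hi₀⟩ := hl
    have key2 : ∀ w : List A, occ π c l 1 w = uocc (orderOf t) (fun a => π a ≠ 1) c i₀ 0 w := by
      intro w
      rw [key]
      unfold uocc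
      refine cnt_proj (δ' := ustep (orderOf t) (fun a => π a ≠ 1))
        (δ := ustep (orderOf t) (fun a => π a ≠ 1)) (fun s => s) (fun _ _ => rfl)
        (fun s a => ?_) 0 w
      constructor
      · rintro ⟨h1, h2⟩
        refine ⟨h1, ?_⟩
        rw [← hi₀] at h2
        have := pow_injOn_Iio_orderOf (x := t) (ZMod.val_lt s) (ZMod.val_lt i₀) h2
        exact ZMod.val_injective _ this
      · rintro ⟨h1, h2⟩
        refine ⟨h1, ?_⟩
        have h2' : s = i₀ := h2
        rw [h2', hi₀]
    simp only [key2]
    by_cases hc : π c = 1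
    · exact uocc_Meas _ _ c (by simpa using hc) i₀ 0 n
    · exact uocc_flag_Meas _ _ c hc i₀ n
  · have key2 : ∀ w : List A, occ π c l 1 w = 0 := by
      intro w
      rw [key]
      generalize (0 : ZMod (orderOf t)) = s
      induction w generalizing s with
      | nil => rfl
      | cons a w ih =>
        rw [cnt_cons, ih]
        have : ¬ (a = c ∧ t ^ s.val = l) := fun h => hl ⟨s, h.2⟩
        simp [this]
    simp only [key2]
    have h0 := uocc_Meas (orderOf t) (fun _ : A => False) c (by simp) 0 0 n
    exact h0.of_determined fun _ _ _ => rfl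

end Vale.Agent.P329
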