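import Vale.Agent.P329.F.O2

namespace Vale.Agent.P329

variable {A : Type}

variable {T : Type} [Group T]

private theorem level_run_aux [Finite T] (π : A → T) (t : T)
    (hπ : ∀ a, π a = 1 ∨ π a = t) (w : List A) (s : ZMod (orderOf t)) :
    t ^ s.val * (w.map π).prod =
      t ^ (arun (ustep (orderOf t) (fun a => π a ≠ 1)) s w).val := by
  induction w generalizing s with
  | nil => simp
  | cons a w ih =>
    rw [arun_cons, ← ih]
    by_cases h1 : π a = 1
    · simp [ustep, h1]
    · have h2 : π a = t := (hπ a).resolve_left h1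
      simp only [ustep, ne_eq, h1, not_false_eq_true, if_true, List.map_cons, List.prod_cons]
      rw [pow_val_succ, h2, mul_assoc]

/-- O3. The final level.  With `M = orderOf t`, `D a := π a ≠ 1`:
`(w.map π).prod = t ^ (arun (ustep M D) 0 w).val` (induction, generalize the start,
`pow_val_succ`), and the state of `ustep` is measurable (`count_Meas` with the marks and the rank
used in `uocc_Meas`, `n = 1`). -/
theorem level_onestep_Meas [Finite A] [Finite T] (π : A → T) (t : T)
    (hπ : ∀ a, π a = 1 ∨ π a = t) : Meas (fun w : List A => (w.map π).prod) := by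
  have : NeZero (orderOf t) := ⟨(orderOf_pos t).ne'⟩
  have hcf1 : CounterFree (ustep (orderOf t) (fun a => π a ≠ 1))
      (fun s x => π x ≠ 1 ∧ s + 1 = (0 : ZMod (orderOf t))) :=
    counterFree_of_rank (fun s => ((0 : ZMod (orderOf t)) - 1 - s).val)
      (fun s x hm => ustep_rank (orderOf t) (fun a => π a ≠ 1) 0 s x hm)
  have h1 := count_Meas hcf1 (q0 := (0 : ZMod (orderOf t)))
    (fun s x hm => by simp [ustep, hm.1, hm.2]) 1 0
  refine h1.of_determined fun w w' h => ?_
  simp only [Prod.mk.injEq] at h
  have e1 := level_run_aux π t hπ w 0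
  have e2 := level_run_aux π t hπ w' 0
  rw [h.2] at e1
  have := e1.trans e2.symm
  exact mul_left_cancel this

end Vale.Agent.P329
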