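import Vale.Agent.P329.F.O3

namespace Vale.Agent.P329

variable {A : Type}

/-- O4. Abelian normal subgroup, all letters in `N` or in the coset `t N`. -/
theorem abelian_one_step {G : Type} [Group G] [Finite A] [Finite G] (N : Subgroup G) [N.Normal]
    (hN : ∀ x ∈ N, ∀ y ∈ N, x * y = y * x) (t : G) (φ : A → G)
    (hφ : ∀ a, φ a ∈ N ∨ t⁻¹ * φ a ∈ N) (S : Set G) :
    HT 1 ({w : List A | (w.map φ).prod ∈ S} : Set (List A)) := by
  have : NeZero (Nat.card N) := ⟨Nat.card_pos.ne'⟩
  have hπ : ∀ a, (QuotientGroup.mk (φ a) : G ⧸ N) = 1 ∨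
      (QuotientGroup.mk (φ a) : G ⧸ N) = (QuotientGroup.mk t : G ⧸ N) := by
    intro a
    rcases hφ a with h | h
    · exact Or.inl ((QuotientGroup.eq_one_iff _).2 h)
    · exact Or.inr (QuotientGroup.eq.2 (by
        have := N.inv_mem h
        simpa [mul_inv_rev] using this))
  exact ext_HT N hN φ (fun c l => occ_onestep_Meas _ _ hπ c l _) (level_onestep_Meas _ _ hπ) S

end Vale.Agent.P329
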