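import Vale.Agent.P329.F.Dc

namespace Vale.Agent.P329

variable {A : Type}

variable (M : ℕ) [NeZero M] (D : A → Prop) (β : A → Bool) (ζ : ZMod M → Bool)

/-- P1a. Induction on `w` generalizing `s`. -/
theorem prun_fst (s : ZMod M × Bool) (w : List A) :
    (arun (pstep M D β ζ) s w).1 = s.1 + (dcnt D w : ZMod M) := by
  induction w generalizing s with
  | nil => simp [dcnt_nil]
  | cons x w ih =>
    rw [arun_cons, ih, dcnt_cons]
    by_cases h : D x
    · simp only [pstep, if_pos h]
      push_cast
      ring
    · simp only [pstep, if_neg h]
      push_cast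
      ring

/-- P1b. -/
theorem prun_neutral (s : ZMod M × Bool) (w : List A) (h : dcnt D w = 0) :
    arun (pstep M D β ζ) s w = s := by
  induction w generalizing s with
  | nil => rfl
  | cons x w ih =>
    rw [dcnt_cons] at h
    by_cases hx : D x
    · rw [if_pos hx] at h
      omega
    · rw [if_neg hx] at h
      rw [arun_cons]
      have : pstep M D β ζ s x = s := by simp only [pstep, if_neg hx]
      rw [this]
      exact ih s (by omega)

end Vale.Agent.P329
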