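import Vale.Agent.P329.F.P1

namespace Vale.Agent.P329

variable {A : Type}

variable (M : ℕ) [NeZero M] (D : A → Prop) (β : A → Bool) (ζ : ZMod M → Bool)

private theorem val_succ_aux (s : ZMod M) (h : s + 1 ≠ 0) : (s + 1).val = s.val + 1 := by
  have h1 : (s + 1).val = (s.val + 1) % M := by
    rw [ZMod.val_add, ZMod.val_one_eq_one_mod, Nat.add_mod_mod]
  have h2 := ZMod.val_lt s
  by_cases h3 : s.val + 1 < M
  · rw [h1, Nat.mod_eq_of_lt h3]
  · exfalso
    have h4 : s.val + 1 = M := by omega
    rw [h4, Nat.mod_self] at h1
    exact h ((ZMod.val_eq_zero _).1 h1)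

/-- P2a. With the bit `false` an unmarked run cannot complete the block.  Induction on `w`
generalizing `s`.  For a letter of `D`: if `s + 1 = 0` the transition is marked; otherwise the new
state is `(s + 1, false)` and `(s + 1).val = s.val + 1` (`ZMod.val_add_one_of_lt` or by hand). -/
theorem prun_false (w : List A) (s : ZMod M)
    (h : cnt (pstep M D β ζ) (pmark M D β ζ) (s, false) w = 0) : s.val + dcnt D w < M := by
  classical
  induction w generalizing s with
  | nil =>
    rw [dcnt_nil]
    exact ZMod.val_lt s
  | cons x w ih =>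
    rw [cnt_cons] at h
    have h1 : cnt (pstep M D β ζ) (pmark M D β ζ) (pstep M D β ζ (s, false) x) w = 0 := by omega
    have h2 : ¬ pmark M D β ζ (s, false) x := by
      intro hm
      rw [if_pos hm] at h
      omega
    rw [dcnt_cons]
    by_cases hD : D x
    · have h3 : s + 1 ≠ 0 := by
        intro h0
        apply h2
        refine ⟨⟨hD, h0⟩, ?_⟩
        rintro ⟨h4, _⟩
        exact Bool.false_ne_true h4
      have h4 : pstep M D β ζ (s, false) x = (s + 1, false) := by
        simp only [pstep, if_pos hD, if_neg h3, Bool.false_and]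
      rw [h4] at h1
      have h5 := ih (s + 1) h1
      rw [val_succ_aux M s h3] at h5
      rw [if_pos hD]
      omega
    · have h4 : pstep M D β ζ (s, false) x = (s, false) := by
        simp only [pstep, if_neg hD]
      rw [h4] at h1
      have h5 := ih s h1
      rw [if_neg hD]
      omega

/-- P2b. -/
theorem prun_flag (q : ZMod M × Bool) (w : List A)
    (h : cnt (pstep M D β ζ) (pmark M D β ζ) q w = 0) (hlen : M ≤ dcnt D w) : q.2 = true := by
  obtain ⟨s, b⟩ := q
  cases b with
  | true => rfl
  | false =>
    have := prun_false M D β ζ w s h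
    omega

end Vale.Agent.P329
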