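import Vale.Agent.P329.F.P2

namespace Vale.Agent.P329

variable {A : Type}

variable (M : ℕ) [NeZero M] (D : A → Prop) (β : A → Bool) (ζ : ZMod M → Bool)

/-- P3. In an unmarked run that goes on long enough every letter of `D` agrees with the pattern.
`cnt_append`, `cnt_cons`; let `s = arun _ q w₁`, `s.1 = q.1 + dcnt D w₁` by `prun_fst`.  If
`β x ≠ ζ s.1`: when `s.1 + 1 = 0` the transition is marked, otherwise the next state is
`(s.1 + 1, false)` and `prun_false` contradicts `hlen`. -/
theorem prun_match (q : ZMod M × Bool) (w₁ : List A) (x : A) (w₂ : List A)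
    (h : cnt (pstep M D β ζ) (pmark M D β ζ) q (w₁ ++ x :: w₂) = 0) (hx : D x)
    (hlen : M ≤ dcnt D w₂) : β x = ζ (q.1 + (dcnt D w₁ : ZMod M)) := by
  classical
  rw [cnt_append, cnt_cons] at h
  rw [← prun_fst M D β ζ q w₁]
  set s := arun (pstep M D β ζ) q w₁ with hs
  have h1 : cnt (pstep M D β ζ) (pmark M D β ζ) (pstep M D β ζ s x) w₂ = 0 := by omega
  have h2 : ¬ pmark M D β ζ s x := by
    intro hm
    rw [if_pos hm] at h
    omega
  by_contra hne
  by_cases h0 : s.1 + 1 = 0
  · exact h2 ⟨⟨hx, h0⟩, fun h3 => hne h3.2⟩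
  · have h4 : pstep M D β ζ s x = (s.1 + 1, false) := by
      have h5 : (β x == ζ s.1) = false := by
        rw [beq_eq_false_iff_ne]
        exact hne
      simp only [pstep, if_pos hx, if_neg h0, h5, Bool.and_false]
    rw [h4] at h1
    have := prun_false M D β ζ w₂ (s.1 + 1) h1
    omega

end Vale.Agent.P329
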