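import Vale.Agent.P329.F.Defs

namespace Vale.Agent.P329

variable {A : Type}

/-- P5. A pattern invariant under a nonzero shift is not primitive.  Let `g = Nat.gcd m M`.
`ζ` is invariant under every multiple of `m`, and `(g : ZMod M)` is such a multiple (Bezout:
`Nat.gcd_eq_gcd_ab`, cast to `ZMod M`, or `Nat.exists_mul_emod_eq...`).  `g ∣ M`, `g ≠ M` since
`M ∤ m`, so `M / g > 1`; take `q = (M / g).minFac`.  Then `M / q = g * (M / g / q)` is a multiple
of `g`. -/
theorem not_prim_of_shift (M : ℕ) [NeZero M] (ζ : ZMod M → Bool) (m : ℕ)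
    (hm : (m : ZMod M) ≠ 0) (hζ : ∀ i, ζ (i + (m : ZMod M)) = ζ i) : ¬ Prim M ζ := by
  intro hP
  have hM : 0 < M := Nat.pos_of_ne_zero (NeZero.ne M)
  -- invariance under natural multiples
  have h1 : ∀ (k : ℕ) (i : ZMod M), ζ (i + (k : ZMod M) * (m : ZMod M)) = ζ i := by
    intro k
    induction k with
    | zero => intro i; simp
    | succ k ih =>
      intro i
      have : i + ((k + 1 : ℕ) : ZMod M) * (m : ZMod M)
          = (i + (k : ZMod M) * (m : ZMod M)) + (m : ZMod M) := by
        push_cast; ring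
      rw [this, hζ, ih]
  -- invariance under all multiples in ZMod M
  have h2 : ∀ (c i : ZMod M), ζ (i + c * (m : ZMod M)) = ζ i := by
    intro c i
    have := h1 c.val i
    rwa [ZMod.natCast_zmod_val] at this
  set g := Nat.gcd m M with hg
  have hgM : g ∣ M := Nat.gcd_dvd_right m M
  have hgm : g ∣ m := Nat.gcd_dvd_left m M
  have hgpos : 0 < g := Nat.pos_of_dvd_of_pos hgM hM
  have hbez : (g : ZMod M) = (m : ZMod M) * ((Nat.gcdA m M : ℤ) : ZMod M) := by
    have := Nat.gcd_eq_gcd_ab m M
    have h3 : ((g : ℤ) : ZMod M) = (((m : ℤ) * Nat.gcdA m M + (M : ℤ) * Nat.gcdB m M : ℤ) : ZMod M) := by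
      rw [hg, this]
    push_cast at h3
    simpa using h3
  have hne : g ≠ M := by
    intro h
    apply hm
    rw [ZMod.natCast_eq_zero_iff]
    rw [← h]; exact hgm
  have hlt : 1 < M / g := by
    obtain ⟨t, ht⟩ := hgM
    have htpos : 0 < t := by
      rcases Nat.eq_zero_or_pos t with h | h
      · subst h; simp at ht; omega
      · exact h
    have : M / g = t := by rw [ht]; exact Nat.mul_div_cancel_left t hgpos
    rw [this]
    rcases Nat.lt_or_ge 1 t with h | h
    · exact h
    · exfalso
      have : t = 1 := by omega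
      subst this
      apply hne; omega
  set q := (M / g).minFac with hq
  have hqp : q.Prime := Nat.minFac_prime (by omega)
  have hqd : q ∣ M / g := Nat.minFac_dvd _
  have hqM : q ∣ M := dvd_trans hqd (Nat.div_dvd_of_dvd hgM)
  apply hP q hqp hqM
  intro i
  obtain ⟨s, hs⟩ := hqd
  have hMq : M / q = g * s := by
    have : M = g * (M / g) := (Nat.mul_div_cancel' hgM).symm
    rw [hs] at this
    have h4 : M = q * (g * s) := by rw [this]; ring
    conv_lhs => rw [h4]
    exact Nat.mul_div_cancel_left _ hqp.pos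
  rw [hMq]
  have : ((g * s : ℕ) : ZMod M) = (((Nat.gcdA m M : ℤ) : ZMod M) * (s : ZMod M)) * (m : ZMod M) := by
    push_cast
    rw [hbez]; ring
  rw [this]
  exact h2 _ i

end Vale.Agent.P329
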