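import Vale.Agent.P329.F.P3
import Vale.Agent.P329.F.P5

namespace Vale.Agent.P329

variable {A : Type}

variable (M : ℕ) [NeZero M] (D : A → Prop) (β : A → Bool) (ζ : ZMod M → Bool)

/-- P7. For a primitive pattern the automaton without the completions of blocks different from
the pattern is counter-free.  Use `counterFree_of_rep`.  Let `m = dcnt D u`.  If `m = 0` use
`prun_neutral`.  Otherwise, for every `c : ℕ`, take `k = c + M + 1`, split `rep k u` at its letter
of `D` number `c` (`dcnt_split`, `dcnt_rep`, `dcnt_append`, `dcnt_cons`); `prun_match` from `q` and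
from `arun _ q u` (zero count there by `rep_succ`, `cnt_append`) gives
`ζ (q.1 + c) = ζ (q.1 + m + c)`.  With `c = (i - q.1).val` this is invariance under the shift by
`m`, so `(m : ZMod M) = 0` by `not_prim_of_shift`.  Both `q` and `arun _ q u` have bit `true`
(`prun_flag` with `rep M u`), and equal first components (`prun_fst`). -/
theorem pat_counterFree (hP : Prim M ζ) :
    CounterFree (pstep M D β ζ) (pmark M D β ζ) := by
  classical
  apply counterFree_of_rep
  intro u q j _hj _hrun hcnt
  by_cases hm0 : dcnt D u = 0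
  · exact prun_neutral M D β ζ q u hm0
  have hmpos : 1 ≤ dcnt D u := Nat.one_le_iff_ne_zero.mpr hm0
  have hcnt' : ∀ k, cnt (pstep M D β ζ) (pmark M D β ζ) (arun (pstep M D β ζ) q u) (rep k u) = 0 := by
    intro k
    have h := hcnt (k + 1)
    rw [rep_succ, cnt_append] at h
    omega
  have hfst : (arun (pstep M D β ζ) q u).1 = q.1 + (dcnt D u : ZMod M) := prun_fst M D β ζ q u
  have key : ∀ c : ℕ, ζ (q.1 + (c : ZMod M)) = ζ (q.1 + (dcnt D u : ZMod M) + (c : ZMod M)) := by
    intro c
    have hlarge : c + M + 1 ≤ (c + M + 1) * dcnt D u := Nat.le_mul_of_pos_right _ hmpos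
    have hlt : c < dcnt D (rep (c + M + 1) u) := by
      rw [dcnt_rep]; omega
    obtain ⟨w₁, x, w₂, hW, hx, hc⟩ := dcnt_split D (rep (c + M + 1) u) c hlt
    have hlen : M ≤ dcnt D w₂ := by
      have h1 : dcnt D (rep (c + M + 1) u) = (c + M + 1) * dcnt D u := dcnt_rep D _ u
      rw [hW, dcnt_append, dcnt_cons, if_pos hx, hc] at h1
      omega
    have h1 := hcnt (c + M + 1)
    have h2 := hcnt' (c + M + 1)
    rw [hW] at h1 h2
    have e1 := prun_match M D β ζ q w₁ x w₂ h1 hx hlen
    have e2 := prun_match M D β ζ (arun (pstep M D β ζ) q u) w₁ x w₂ h2 hx hlen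
    rw [hc] at e1 e2
    rw [hfst] at e2
    rw [← e1, ← e2]
  have hm : (dcnt D u : ZMod M) = 0 := by
    by_contra hne
    apply not_prim_of_shift M ζ (dcnt D u) hne _ hP
    intro i
    have h := key (i - q.1).val
    rw [ZMod.natCast_zmod_val] at h
    have a1 : q.1 + (i - q.1) = i := by ring
    have a2 : q.1 + (dcnt D u : ZMod M) + (i - q.1) = i + (dcnt D u : ZMod M) := by ring
    rw [a1, a2] at h
    exact h.symm
  have hML : M ≤ dcnt D (rep M u) := by
    rw [dcnt_rep]; exact Nat.le_mul_of_pos_right _ hmpos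
  have f1 : q.2 = true := prun_flag M D β ζ q (rep M u) (hcnt M) hML
  have f2 : (arun (pstep M D β ζ) q u).2 = true :=
    prun_flag M D β ζ _ (rep M u) (hcnt' M) hML
  apply Prod.ext
  · rw [hfst, hm, add_zero]
  · rw [f1, f2]

end Vale.Agent.P329
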