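import Vale.Agent.P329.F.P7

namespace Vale.Agent.P329

variable {A : Type}

variable (M : ℕ) [NeZero M] (D : A → Prop) (β : A → Bool) (ζ : ZMod M → Bool)

/-- P9a. Rank argument: `counterFree_of_rank` with rank `(0 - 1 - s.1).val`, compare
`ustep_rank` in `Rank`. -/
theorem pall_counterFree : CounterFree (pstep M D β ζ) (pall M D) := by
  refine counterFree_of_rank (fun s => (0 - 1 - s.1).val) ?_
  intro s x hm
  by_cases hD : D x
  · right
    have e : (pstep M D β ζ s x).1 = s.1 + 1 := by simp [pstep, hD]
    show (0 - 1 - (pstep M D β ζ s x).1).val < (0 - 1 - s.1).val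
    rw [e]
    have hne : (0 : ZMod M) - 1 - s.1 ≠ 0 := by
      intro h0
      apply hm
      refine ⟨hD, ?_⟩
      linear_combination -h0
    have := val_sub_one_lt hne
    have e2 : (0 : ZMod M) - 1 - (s.1 + 1) = 0 - 1 - s.1 - 1 := by ring
    rw [e2]
    exact this
  · left
    simp [pstep, hD]

/-- P9b. The number of completed blocks equal to a primitive pattern is measurable.
`count_Meas` for `pat_counterFree` and for `pall_counterFree` (common target `(0, true)`),
`cnt_split` (`pall ↔ pmark ∨ pgood`) and subtraction, as in `IU_Meas`. -/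
theorem pgood_Meas [Finite A] (hP : Prim M ζ) (n : ℕ) [NeZero n] :
    Meas (fun w : List A =>
      ((cnt (pstep M D β ζ) (pgood M D β ζ) (0, true) w : ℕ) : ZMod n)) := by
  have t1 : ∀ q a, pall M D q a → pstep M D β ζ q a = ((0 : ZMod M), true) := by
    intro q a h
    obtain ⟨hD, h0⟩ := h
    simp [pstep, hD, h0]
  have t2 : ∀ q a, pmark M D β ζ q a → pstep M D β ζ q a = ((0 : ZMod M), true) := by
    intro q a h
    exact t1 q a h.1
  have h1 := count_Meas (pall_counterFree M D β ζ) t1 n ((0 : ZMod M), true)
  have h2 := count_Meas (pat_counterFree M D β ζ hP) t2 n ((0 : ZMod M), true)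
  refine (h1.prodMk h2).of_determined fun w w' h => ?_
  have hs : ∀ w, cnt (pstep M D β ζ) (pall M D) ((0 : ZMod M), true) w =
      cnt (pstep M D β ζ) (pmark M D β ζ) ((0 : ZMod M), true) w +
        cnt (pstep M D β ζ) (pgood M D β ζ) ((0 : ZMod M), true) w := by
    intro w
    apply cnt_split
    · intro s a
      simp only [pall, pmark, pgood]
      tauto
    · intro s a
      simp only [pmark, pgood]
      tauto
  simp only [Prod.mk.injEq] at h
  obtain ⟨⟨h3, -⟩, h5, -⟩ := h
  rw [hs w, hs w'] at h3
  push_cast at h3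
  rw [h5] at h3
  exact add_left_cancel h3

end Vale.Agent.P329
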