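import Vale.Agent.P329.F.Defs

namespace Vale.Agent.P329

variable {A : Type}

/-- W1. Linearity of `wsum` in the weight.  Induction on `w` generalizing `z`; unfold `wsum`,
split the `if`, `ring`. -/
theorem wsum_lin (D : A → Prop) (β : A → Bool) (c : ℤ) (F G : ℕ → ℤ) (z : ℕ) (w : List A) :
    wsum D β (fun i => c * F i - G i) z w = c * wsum D β F z w - wsum D β G z w := by
  induction w generalizing z with
  | nil => simp [wsum]
  | cons x w ih =>
    simp only [wsum]
    rw [ih]
    split_ifs <;> ring

end Vale.Agent.P329
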