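import Vale.Agent.P329.F.Defs

namespace Vale.Agent.P329

variable {A : Type}

open Classical in
/-- W3. The level count `uocc` is a `wsum` with an indicator weight.  Induction on `w`
generalizing `z`, with `uocc_cons` (needs `DecidableEq A`, use classical), `ustep`, and
`Nat.cast_succ`. -/
theorem uocc_eq_wsum (M : ℕ) (D : A → Prop) (b : A) (l : ZMod M) (z : ℕ) (w : List A) :
    ((uocc M D b l (z : ZMod M) w : ℕ) : ℤ) =
      wsum D (fun x => decide (x = b)) (fun i => if (i : ZMod M) = l then 1 else 0) z w := by
  induction w generalizing z with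
  | nil => simp [uocc_nil, wsum]
  | cons x w ih =>
    rw [uocc_cons]
    have hz : ustep M D (z : ZMod M) x = (((if D x then z + 1 else z : ℕ)) : ZMod M) := by
      by_cases h : D x
      · rw [ustep_pos M D (z : ZMod M) x h]
        simp [h]
      · rw [ustep_neg M D (z : ZMod M) x h]
        simp [h]
    rw [hz, Nat.cast_add, ih]
    simp only [wsum]
    congr 1
    by_cases h1 : x = b
    · by_cases h2 : (z : ZMod M) = l
      · simp [h1, h2]
      · simp [h1, h2]
    · simp [h1]

end Vale.Agent.P329
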